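import Vale.Agent.P254.S11.LogB

/-!
# P254, block S: the scalar dual certificate of near-sharp slicing

`PsiS m = ∫₁^m √(1/y² + 3) dy = s - 2 - log ((1+s)/3) + log m`, `s = √(1+3m²)`.

* `gS_le` : the one variable inequality.
* `scalar_bound` : its integrated form.
-/

noncomputable section

namespace Vale.Agent.P254.S11

open Real Set

/-- `√(1+3m²)` -/
def sS (m : ℝ) : ℝ := √(1 + 3 * m ^ 2)

/-- `∫₁^m √(1/y²+3) dy` -/
def PsiS (m : ℝ) : ℝ := sS m - 2 - Real.log ((1 + sS m) / 3) + Real.log m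

lemma sS_pos (m : ℝ) : 0 < sS m := Real.sqrt_pos.2 (by positivity)

lemma sS_sq (m : ℝ) : sS m ^ 2 = 1 + 3 * m ^ 2 := Real.sq_sqrt (by positivity)

lemma hasDerivAt_sS (m : ℝ) : HasDerivAt sS (3 * m / sS m) m := by
  have h : HasDerivAt (fun x : ℝ => 1 + 3 * x ^ 2) (6 * m) m := by
    refine (((hasDerivAt_pow 2 m).const_mul 3).const_add 1).congr_deriv ?_
    norm_num
    ring
  have h2 : HasDerivAt sS (6 * m / (2 * sS m)) m :=
    h.sqrt (by positivity : (1 + 3 * m ^ 2 : ℝ) ≠ 0)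
  refine h2.congr_deriv ?_
  have : sS m ≠ 0 := (sS_pos m).ne'
  field_simp
  ring

lemma hasDerivAt_PsiS {m : ℝ} (hm : 0 < m) : HasDerivAt PsiS (sS m / m) m := by
  have hs := sS_pos m
  have hq := sS_sq m
  have h1 : HasDerivAt (fun x => Real.log ((1 + sS x) / 3)) ((3 * m / sS m / 3) / ((1 + sS m) / 3)) m :=
    (((hasDerivAt_sS m).const_add 1).div_const 3).log (by positivity)
  have h2 := (((hasDerivAt_sS m).sub_const 2).sub h1).add (Real.hasDerivAt_log hm.ne')
  refine h2.congr_deriv ?_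
  field_simp
  nlinarith

/-- constants of the certificate -/
def gS (m : ℝ) : ℝ :=
  -2 * Real.log m + 91 / 200 * (1 + m ^ 2) - 2 * (91 / 200) * (453 / 200) * ((m - 1) * PsiS m)
    + 91 / 200 * (453 / 200) ^ 2 * (m ^ 2 - 1) + 161 / 200 * ((1 + m ^ 2) / 2)
    - 173 / 40 * (m - 1) - 1 - Real.log (161 / 200)

def gS1 (m : ℝ) : ℝ :=
  -2 / m + 91 / 100 * m - 2 * (91 / 200) * (453 / 200) * (PsiS m + (m - 1) * (sS m / m))
    + 2 * (91 / 200 * (453 / 200) ^ 2) * m + 161 / 200 * m - 173 / 40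

def gS2 (m : ℝ) : ℝ :=
  2 / m ^ 2 + 91 / 100 - 2 * (91 / 200) * (453 / 200) * (2 * (sS m / m) - (m - 1) / (m ^ 2 * sS m))
    + 2 * (91 / 200 * (453 / 200) ^ 2) + 161 / 200

lemma hasDerivAt_gS {m : ℝ} (hm : 0 < m) : HasDerivAt gS (gS1 m) m := by
  have hP := ((hasDerivAt_id m).sub_const 1).mul (hasDerivAt_PsiS hm)
  have hl := (Real.hasDerivAt_log hm.ne').const_mul (-2)
  have hq := hasDerivAt_pow 2 m
  have h := ((((((hl.add ((hq.const_add 1).const_mul (91 / 200))).sub
    (hP.const_mul (2 * (91 / 200) * (453 / 200)))).add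
    ((hq.sub_const 1).const_mul (91 / 200 * (453 / 200) ^ 2))).add
    (((hq.const_add 1).div_const 2).const_mul (161 / 200))).sub
    (((hasDerivAt_id m).sub_const 1).const_mul (173 / 40))).sub_const 1).sub_const
      (Real.log (161 / 200))
  refine h.congr_deriv ?_
  simp only [id, gS1]
  push_cast
  ring

lemma hasDerivAt_gS1 {m : ℝ} (hm : 0 < m) : HasDerivAt gS1 (gS2 m) m := by
  have hs := sS_pos m
  have hq := sS_sq m
  have hsm : HasDerivAt (fun x => sS x / x) (-1 / (m ^ 2 * sS m)) m := by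
    refine ((hasDerivAt_sS m).div (hasDerivAt_id m) hm.ne').congr_deriv ?_
    simp only [id]
    field_simp
    nlinarith
  have h1 : HasDerivAt (fun x : ℝ => -2 / x) (2 / m ^ 2) m := by
    refine ((hasDerivAt_const m (-2 : ℝ)).div (hasDerivAt_id m) hm.ne').congr_deriv ?_
    simp only [id]; ring
  have hP := (hasDerivAt_PsiS hm).add (((hasDerivAt_id m).sub_const 1).mul hsm)
  have h := ((((h1.add ((hasDerivAt_id m).const_mul (91 / 100))).sub
    (hP.const_mul (2 * (91 / 200) * (453 / 200)))).add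
    ((hasDerivAt_id m).const_mul (2 * (91 / 200 * (453 / 200) ^ 2)))).add
    ((hasDerivAt_id m).const_mul (161 / 200))).sub_const (173 / 40)
  refine h.congr_deriv ?_
  simp only [id, gS2]
  field_simp
  ring

/-- tangent line inequality from an antitone derivative -/
lemma tangent_le {f f' : ℝ → ℝ} {I : Set ℝ} (hI : I.OrdConnected)
    (hf : ∀ x ∈ I, HasDerivAt f (f' x) x) (hanti : AntitoneOn f' I) {a x : ℝ} (ha : a ∈ I)
    (hx : x ∈ I) : f x ≤ f a + f' a * (x - a) := by
  rcases lt_trichotomy x a with h | h | h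
  · obtain ⟨c, hc, hc'⟩ := exists_hasDerivAt_eq_slope f f' h
      (fun y hy => (hf y (hI.out hx ha hy)).continuousAt.continuousWithinAt)
      (fun y hy => hf y (hI.out hx ha (Ioo_subset_Icc_self hy)))
    have hcI : c ∈ I := hI.out hx ha (Ioo_subset_Icc_self hc)
    have h1 := hanti hcI ha hc.2.le
    rw [hc', le_div_iff₀ (sub_pos.2 h)] at h1
    linarith
  · subst h; simp
  · obtain ⟨c, hc, hc'⟩ := exists_hasDerivAt_eq_slope f f' h
      (fun y hy => (hf y (hI.out ha hx hy)).continuousAt.continuousWithinAt)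
      (fun y hy => hf y (hI.out ha hx (Ioo_subset_Icc_self hy)))
    have hcI : c ∈ I := hI.out ha hx (Ioo_subset_Icc_self hc)
    have h1 := hanti ha hcI hc.1.le
    rw [hc', div_le_iff₀ (sub_pos.2 h)] at h1
    linarith

/-- sign of the second derivative -/
lemma gS2_eq {m : ℝ} (hm : 0 < m) : gS2 m * (m ^ 2 * sS m) =
    sS m * (2 + (25534019 / 4000000) * m ^ 2) - (41223 / 20000) * (6 * m ^ 3 + m + 1) := by
  have hs := sS_pos m
  have hq := sS_sq m
  have h : gS2 m * (m ^ 2 * sS m) = 2 * sS m + (25534019 / 4000000) * m ^ 2 * sS m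
      - (41223 / 20000) * (2 * sS m ^ 2 * m - (m - 1)) := by
    unfold gS2
    field_simp
    ring
  rw [h, hq]
  ring

lemma poly_A {m : ℝ} (h0 : 0 ≤ m) (h1 : m ≤ 91 / 229) :
    (1 + 3 * m ^ 2) * (2 + (25534019 / 4000000) * m ^ 2) ^ 2 ≤ ((41223 / 20000) * (6 * m ^ 3 + m + 1)) ^ 2 := by
  have h2 : 0 ≤ 91 / 229 - m := by linarith
  have key : ((41223 / 20000) * (6 * m ^ 3 + m + 1)) ^ 2 - (1 + 3 * m ^ 2) * (2 + (25534019 / 4000000) * m ^ 2) ^ 2 =
    (14325783295369138281209 / 227147700816400000000) * (m ^ 0 * (91 / 229 - m) ^ 6) + (70181839148877744940569 / 56786925204100000000) * (m ^ 1 * (91 / 229 - m) ^ 5) + (442770500472831508535507 / 113573850408200000000) * (m ^ 2 * (91 / 229 - m) ^ 4) + (150743291777629851500911 / 28393462602050000000) * (m ^ 3 * (91 / 229 - m) ^ 3) + (32060315721979193168271969839 / 9085908032656000000000000) * (m ^ 4 * (91 / 229 - m) ^ 2) + (4193174080263104431033289839 / 4542954016328000000000000) * (m ^ 5 * (91 / 229 -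 m) ^ 1) + (19295203364626173690633359 / 2271477008164000000000000) * (m ^ 6 * (91 / 229 - m) ^ 0) := by ring
  rw [← sub_nonneg, key]
  positivity

lemma poly_B {m : ℝ} (h1 : 88 / 73 ≤ m) :
    (1 + 3 * m ^ 2) * (2 + (25534019 / 4000000) * m ^ 2) ^ 2 ≤ ((41223 / 20000) * (6 * m ^ 3 + m + 1)) ^ 2 := by
  have h2 : 0 ≤ m - 88 / 73 := by linarith
  have key : ((41223 / 20000) * (6 * m ^ 3 + m + 1)) ^ 2 - (1 + 3 * m ^ 2) * (2 + (25534019 / 4000000) * m ^ 2) ^ 2 =
    (206438770680780691213121 / 37833556572250000000000) * (m - 88 / 73) ^ 0 + (39964986516219493176113 / 259133949125000000000) * (m - 88 / 73) ^ 1 + (3866500691202360261451 / 7099560250000000000) * (m - 88 / 73) ^ 2 + (156829273621278474181 / 194508500000000000) * (m - 88 / 73) ^ 3 + (51385374826623326951 / 85264000000000000) * (m - 88 / 73) ^ 4 + (16205807339136261 / 73000000000000) * (m - 88 / 73) ^ 5 + (491085070882917 / 16000000000000) * (m - 88 / 73) ^ 6 := by ring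
  rw [← sub_nonneg, key]
  positivity

lemma poly_C {m : ℝ} (h0 : 91 / 229 ≤ m) (h1 : m ≤ 88 / 73) :
    ((41223 / 20000) * (6 * m ^ 3 + m + 1)) ^ 2 ≤ (1 + 3 * m ^ 2) * (2 + ((25534019 / 4000000) + 1 / 20) * m ^ 2) ^ 2 := by
  have h2 : 0 ≤ m - 91 / 229 := by linarith
  have h3 : 0 ≤ 88 / 73 - m := by linarith
  have key : (1 + 3 * m ^ 2) * (2 + ((25534019 / 4000000) + 1 / 20) * m ^ 2) ^ 2 - ((41223 / 20000) * (6 * m ^ 3 + m + 1)) ^ 2 =
    (118486298420068865641587159934452787 / 900399898278317913666732000000000000) * ((m - 91 / 229) ^ 0 * (88 / 73 - m) ^ 6) + (9926480188313417721487970682508331903 / 360159959311327165466692800000000000) * ((m - 91 / 229) ^ 1 * (88 / 73 - m) ^ 5) + (708880197150258033505695940423987708243 / 3601599593113271654666928000000000000) * ((m - 91 / 229) ^ 2 * (88 / 73 - m) ^ 4) + (62233382614457599990036264784186160239 / 112549987284789739208341500000000000) * ((m - 91 / 229) ^ 3 * (88 / 73 - m) ^ 3) + (2640343138673720808187726492303521047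 / 3517187102649679350260671875000000) * ((m - 91 / 229) ^ 4 * (88 / 73 - m) ^ 2) + (1147916416184927736877728439141417193 / 2813749682119743480208537500000000) * ((m - 91 / 229) ^ 5 * (88 / 73 - m) ^ 1) + (225945653017870061860732867688871239 / 18758331214131623201390250000000000) * ((m - 91 / 229) ^ 6 * (88 / 73 - m) ^ 0) := by ring
  rw [← sub_nonneg, key]
  positivity

lemma gS2_nonpos {m : ℝ} (hm : 0 < m) (h : (1 + 3 * m ^ 2) * (2 + (25534019 / 4000000) * m ^ 2) ^ 2 ≤
    ((41223 / 20000) * (6 * m ^ 3 + m + 1)) ^ 2) : gS2 m ≤ 0 := by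
  have hs := sS_pos m
  have hq := sS_sq m
  have h1 : (sS m * (2 + (25534019 / 4000000) * m ^ 2)) ^ 2 ≤ ((41223 / 20000) * (6 * m ^ 3 + m + 1)) ^ 2 := by
    rw [mul_pow, hq]; exact h
  have h2 := abs_le_of_sq_le_sq h1 (by positivity)
  have h3 := gS2_eq hm
  have h4 : gS2 m * (m ^ 2 * sS m) ≤ 0 := by rw [h3]; linarith [(abs_le.1 h2).2]
  by_contra hc
  push Not at hc
  have : 0 < gS2 m * (m ^ 2 * sS m) := by positivity
  linarith

lemma gS2_ge {m : ℝ} (h0 : 91 / 229 ≤ m) (h1 : m ≤ 88 / 73) : -(1 / 20) ≤ gS2 m := by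
  have hm : 0 < m := by linarith
  have hs := sS_pos m
  have hq := sS_sq m
  have h := poly_C h0 h1
  have h1 : ((41223 / 20000) * (6 * m ^ 3 + m + 1)) ^ 2 ≤ (sS m * (2 + ((25534019 / 4000000) + 1 / 20) * m ^ 2)) ^ 2 := by
    rw [mul_pow (sS m), hq]; exact h
  have h2 := abs_le_of_sq_le_sq h1 (by positivity)
  have h3 := gS2_eq hm
  have h4 : 0 ≤ (gS2 m + 1 / 20) * (m ^ 2 * sS m) := by
    rw [add_mul, h3]; linarith [(abs_le.1 h2).2]
  by_contra hc
  push Not at hc
  have : 0 < (-(gS2 m + 1 / 20)) * (m ^ 2 * sS m) := mul_pos (by linarith) (by positivity)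
  linarith

lemma antitoneOn_gS1_left : AntitoneOn gS1 (Ioc 0 (91 / 229)) := by
  refine antitoneOn_of_deriv_nonpos (convex_Ioc _ _)
    (fun x hx => (hasDerivAt_gS1 hx.1).continuousAt.continuousWithinAt)
    (fun x hx => (hasDerivAt_gS1 (interior_subset hx).1).differentiableAt.differentiableWithinAt)
    fun x hx => ?_
  have hx' := interior_subset hx
  rw [(hasDerivAt_gS1 hx'.1).deriv]
  exact gS2_nonpos hx'.1 (poly_A hx'.1.le hx'.2)

lemma antitoneOn_gS1_right : AntitoneOn gS1 (Ici (88 / 73)) := by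
  have hp : ∀ x ∈ Ici (88 / 73 : ℝ), 0 < x := fun x hx => by
    have : (88 / 73 : ℝ) ≤ x := hx
    linarith
  refine antitoneOn_of_deriv_nonpos (convex_Ici _)
    (fun x hx => (hasDerivAt_gS1 (hp x hx)).continuousAt.continuousWithinAt)
    (fun x hx => (hasDerivAt_gS1 (hp x (interior_subset hx))).differentiableAt.differentiableWithinAt)
    fun x hx => ?_
  have hx' := interior_subset hx
  rw [(hasDerivAt_gS1 (hp x hx')).deriv]
  exact gS2_nonpos (hp x hx') (poly_B hx')

/-- value at a point with rational square root -/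
lemma PsiS_eval {m r u : ℝ} (hm : 0 < m) (hr : 0 < r) (hr2 : r ^ 2 = 1 + 3 * m ^ 2)
    (hu : m = u * ((1 + r) / 3)) : sS m = r ∧ PsiS m = r - 2 + Real.log u := by
  have h1 : sS m = r := by
    unfold sS
    rw [← hr2, Real.sqrt_sq hr.le]
  have hu0 : 0 < u := by
    by_contra hc
    push Not at hc
    have : u * ((1 + r) / 3) ≤ 0 := mul_nonpos_of_nonpos_of_nonneg hc (by positivity)
    linarith
  refine ⟨h1, ?_⟩
  unfold PsiS
  have h2 : Real.log m = Real.log u + Real.log ((1 + r) / 3) := by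
    rw [hu, Real.log_mul hu0.ne' (by positivity)]
  rw [h1, h2]
  ring

lemma log_c : -0.21692 < Real.log (161 / 200) ∧ Real.log (161 / 200) < -0.21691 := by
  have h := log_art (x := 39 / 361) (by norm_num) (by norm_num)
  have e : Real.log (161 / 200) = -Real.log ((1 + 39 / 361) / (1 - 39 / 361)) := by
    rw [← Real.log_inv]; norm_num
  rw [e]
  constructor <;> [have := h.2; have := h.1] <;> norm_num at this ⊢ <;> linarith

lemma logs_a : (-1.3917 < Real.log (140 / 563) ∧ Real.log (140 / 563) < -1.3916) ∧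
    (-1.02964 < Real.log (5 / 14) ∧ Real.log (5 / 14) < -1.0296) := by
  have h2a := Real.log_two_gt_d9
  have h2b := Real.log_two_lt_d9
  have h := log_art (x := 3 / 1123) (by norm_num) (by norm_num)
  have h' := log_art (x := 3 / 17) (by norm_num) (by norm_num)
  have e : Real.log (140 / 563) =
      -Real.log ((1 + 3 / 1123) / (1 - 3 / 1123)) - 2 * Real.log 2 := by
    rw [← Real.log_inv, show (2 : ℝ) * Real.log 2 = Real.log (2 ^ 2) by rw [Real.log_pow]; norm_num,
      ← Real.log_div (by norm_num) (by norm_num)]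
    norm_num
  have e' : Real.log (5 / 14) = Real.log ((1 + 3 / 17) / (1 - 3 / 17)) - 2 * Real.log 2 := by
    rw [show (2 : ℝ) * Real.log 2 = Real.log (2 ^ 2) by rw [Real.log_pow]; norm_num,
      ← Real.log_div (by norm_num) (by norm_num)]
    norm_num
  rw [e, e']
  obtain ⟨a1, a2⟩ := h
  obtain ⟨b1, b2⟩ := h'
  generalize Real.log ((1 + 3 / 1123) / (1 - 3 / 1123)) = X at *
  generalize Real.log ((1 + 3 / 17) / (1 - 3 / 17)) = Y at *
  norm_num at a1 a2 b1 b2 ⊢
  refine ⟨⟨?_, ?_⟩, ⟨?_, ?_⟩⟩ <;> linarith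

lemma logs_1 : (-0.92287 < Real.log (91 / 229) ∧ Real.log (91 / 229) < -0.92285) ∧
    (-0.61905 < Real.log (7 / 13) ∧ Real.log (7 / 13) < -0.61903) := by
  have h2a := Real.log_two_gt_d9
  have h2b := Real.log_two_lt_d9
  have h := log_art (x := 47 / 411) (by norm_num) (by norm_num)
  have h' := log_art (x := 1 / 27) (by norm_num) (by norm_num)
  have e : Real.log (91 / 229) =
      -Real.log ((1 + 47 / 411) / (1 - 47 / 411)) - Real.log 2 := by
    rw [← Real.log_inv, ← Real.log_div (by norm_num) (by norm_num)]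
    norm_num
  have e' : Real.log (7 / 13) = Real.log ((1 + 1 / 27) / (1 - 1 / 27)) - Real.log 2 := by
    rw [← Real.log_div (by norm_num) (by norm_num)]
    norm_num
  rw [e, e']
  obtain ⟨a1, a2⟩ := h
  obtain ⟨b1, b2⟩ := h'
  generalize Real.log ((1 + 47 / 411) / (1 - 47 / 411)) = X at *
  generalize Real.log ((1 + 1 / 27) / (1 - 1 / 27)) = Y at *
  norm_num at a1 a2 b1 b2 ⊢
  refine ⟨⟨?_, ?_⟩, ⟨?_, ?_⟩⟩ <;> linarith

lemma logs_2 : (0.18687 < Real.log (88 / 73) ∧ Real.log (88 / 73) < 0.18689) ∧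
    (0.08701 < Real.log (12 / 11) ∧ Real.log (12 / 11) < 0.08702) := by
  have h := log_art (x := 15 / 161) (by norm_num) (by norm_num)
  have h' := log_art (x := 1 / 23) (by norm_num) (by norm_num)
  norm_num at h h' ⊢
  obtain ⟨a1, a2⟩ := h
  obtain ⟨b1, b2⟩ := h'
  refine ⟨⟨?_, ?_⟩, ⟨?_, ?_⟩⟩ <;> linarith

lemma logs_c : (0.5052 < Real.log (416 / 251) ∧ Real.log (416 / 251) < 0.5054) ∧
    (0.20763 < Real.log (16 / 13) ∧ Real.log (16 / 13) < 0.20765) := by
  have h := log_art (x := 165 / 667) (by norm_num) (by norm_num)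
  have h' := log_art (x := 3 / 29) (by norm_num) (by norm_num)
  norm_num at h h' ⊢
  obtain ⟨a1, a2⟩ := h
  obtain ⟨b1, b2⟩ := h'
  refine ⟨⟨?_, ?_⟩, ⟨?_, ?_⟩⟩ <;> linarith

lemma gS_a : gS (140 / 563) ≤ 0.9653 ∧ 0 ≤ gS1 (140 / 563) ∧ gS1 (140 / 563) ≤ 0.002 := by
  obtain ⟨e1, e2⟩ := PsiS_eval (m := 140 / 563) (r := 613 / 563) (u := 5 / 14) (by norm_num)
    (by norm_num) (by norm_num) (by norm_num)
  obtain ⟨⟨a1, a2⟩, b1, b2⟩ := logs_a
  obtain ⟨c1, c2⟩ := log_c
  unfold gS gS1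
  rw [e1, e2]
  generalize Real.log (140 / 563) = X at *
  generalize Real.log (5 / 14) = Y at *
  generalize Real.log (161 / 200) = Z at *
  norm_num at *
  refine ⟨?_, ?_, ?_⟩ <;> linarith

lemma gS_1 : gS (91 / 229) ≤ 0.9511 := by
  obtain ⟨e1, e2⟩ := PsiS_eval (m := 91 / 229) (r := 278 / 229) (u := 7 / 13) (by norm_num)
    (by norm_num) (by norm_num) (by norm_num)
  obtain ⟨⟨a1, a2⟩, b1, b2⟩ := logs_1
  obtain ⟨c1, c2⟩ := log_c
  unfold gS
  rw [e2]
  generalize Real.log (91 / 229) = X at *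
  generalize Real.log (7 / 13) = Y at *
  generalize Real.log (161 / 200) = Z at *
  norm_num at *
  linarith

lemma gS_2 : gS (88 / 73) ≤ 0.9511 := by
  obtain ⟨e1, e2⟩ := PsiS_eval (m := 88 / 73) (r := 169 / 73) (u := 12 / 11) (by norm_num)
    (by norm_num) (by norm_num) (by norm_num)
  obtain ⟨⟨a1, a2⟩, b1, b2⟩ := logs_2
  obtain ⟨c1, c2⟩ := log_c
  unfold gS
  rw [e2]
  generalize Real.log (88 / 73) = X at *
  generalize Real.log (12 / 11) = Y at *
  generalize Real.log (161 / 200) = Z at *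
  norm_num at *
  linarith

lemma gS_c : gS (416 / 251) ≤ 0.9642 ∧ -0.009 ≤ gS1 (416 / 251) ∧ gS1 (416 / 251) ≤ 0 := by
  obtain ⟨e1, e2⟩ := PsiS_eval (m := 416 / 251) (r := 763 / 251) (u := 16 / 13) (by norm_num)
    (by norm_num) (by norm_num) (by norm_num)
  obtain ⟨⟨a1, a2⟩, b1, b2⟩ := logs_c
  obtain ⟨c1, c2⟩ := log_c
  unfold gS gS1
  rw [e1, e2]
  generalize Real.log (416 / 251) = X at *
  generalize Real.log (16 / 13) = Y at *
  generalize Real.log (161 / 200) = Z at *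
  norm_num at *
  refine ⟨?_, ?_, ?_⟩ <;> linarith

/-- **the pointwise certificate** -/
theorem gS_le {m : ℝ} (hm : 0 < m) : gS m ≤ 0.97 := by
  rcases le_or_gt m (91 / 229) with h | h
  · have h1 := tangent_le ordConnected_Ioc (f := gS) (f' := gS1)
      (fun x hx => hasDerivAt_gS hx.1) antitoneOn_gS1_left (a := 140 / 563) (x := m)
      ⟨by norm_num, by norm_num⟩ ⟨hm, h⟩
    obtain ⟨a1, a2, a3⟩ := gS_a
    have : gS1 (140 / 563) * (m - 140 / 563) ≤ 0.002 * 1 := by
      have h3 : m - 140 / 563 ≤ 1 := by linarith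
      nlinarith
    linarith
  rcases le_or_gt (88 / 73) m with h' | h'
  · have h1 := tangent_le ordConnected_Ici (f := gS) (f' := gS1)
      (fun x hx => hasDerivAt_gS (by have : (88 / 73 : ℝ) ≤ x := hx; linarith))
      antitoneOn_gS1_right (a := 416 / 251) (x := m)
      (by norm_num) h'
    obtain ⟨a1, a2, a3⟩ := gS_c
    have : gS1 (416 / 251) * (m - 416 / 251) ≤ 0.009 * (46 / 100) := by
      have h3 : -(46 / 100) ≤ m - 416 / 251 := by linarith
      nlinarith
    linarith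
  · -- middle piece
    set F : ℝ → ℝ := fun x => gS x - 1 / 20 * ((x - 91 / 229) * (88 / 73 - x) / 2) with hF
    have hFd : ∀ x, 0 < x → HasDerivAt F (gS1 x - 1 / 20 * ((91 / 229 + 88 / 73 - 2 * x) / 2)) x := by
      intro x hx
      have h1 := (((hasDerivAt_id x).sub_const (91 / 229)).mul
        ((hasDerivAt_id x).const_sub (88 / 73))).div_const 2
      refine ((hasDerivAt_gS hx).sub (h1.const_mul (1 / 20))).congr_deriv ?_
      simp only [id]; ring
    have hFd2 : ∀ x, 0 < x → HasDerivAt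
        (fun x => gS1 x - 1 / 20 * ((91 / 229 + 88 / 73 - 2 * x) / 2)) (gS2 x + 1 / 20) x := by
      intro x hx
      have h1 := ((((hasDerivAt_id x).const_mul 2).const_sub (91 / 229 + 88 / 73)).div_const 2).const_mul (1 / 20)
      refine ((hasDerivAt_gS1 hx).sub h1).congr_deriv ?_
      ring
    have hconv : ConvexOn ℝ (Icc (91 / 229 : ℝ) (88 / 73)) F := by
      refine MonotoneOn.convexOn_of_deriv (convex_Icc _ _)
        (fun x hx => (hFd x (by linarith [hx.1])).continuousAt.continuousWithinAt)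
        (fun x hx => ((hFd x (by linarith [(interior_subset hx).1])).differentiableAt).differentiableWithinAt) ?_
      have hmono : MonotoneOn (fun x => gS1 x - 1 / 20 * ((91 / 229 + 88 / 73 - 2 * x) / 2))
          (Icc (91 / 229 : ℝ) (88 / 73)) := by
        refine monotoneOn_of_deriv_nonneg (convex_Icc _ _)
          (fun x hx => (hFd2 x (by linarith [hx.1])).continuousAt.continuousWithinAt)
          (fun x hx => ((hFd2 x (by linarith [(interior_subset hx).1])).differentiableAt).differentiableWithinAt)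
          fun x hx => ?_
        have hx' := interior_subset hx
        rw [(hFd2 x (by linarith [hx'.1])).deriv]
        linarith [gS2_ge hx'.1 hx'.2]
      intro x hx y hy hxy
      have hx' := interior_subset hx
      have hy' := interior_subset hy
      rw [(hFd x (by linarith [hx'.1])).deriv, (hFd y (by linarith [hy'.1])).deriv]
      exact hmono hx' hy' hxy
    have hmax := hconv.le_max_of_mem_Icc (x := 91 / 229) (y := 88 / 73) (z := m)
      (left_mem_Icc.2 (by norm_num)) (right_mem_Icc.2 (by norm_num)) ⟨h.le, h'.le⟩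
    have e1 : F (91 / 229) = gS (91 / 229) := by simp [hF]
    have e2 : F (88 / 73) = gS (88 / 73) := by simp [hF]
    have h3 : max (F (91 / 229)) (F (88 / 73)) ≤ 0.9511 := by
      rw [e1, e2]; exact max_le gS_1 gS_2
    have h4 : F m ≤ 0.9511 := hmax.trans h3
    have h5 : (m - 91 / 229) * (88 / 73 - m) ≤ 1 / 4 := by
      nlinarith [sq_nonneg (m - 91 / 229 - (88 / 73 - m))]
    have h6 : gS m = F m + 1 / 20 * ((m - 91 / 229) * (88 / 73 - m) / 2) := by simp [hF]
    rw [h6]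
    linarith

/-- The test function `F`, `F'(m)² = al/m² + 3 be` with `al = be = 91/200`. -/
def FS (m : ℝ) : ℝ := √(91 / 200) * PsiS m

lemma hasDerivAt_FS {m : ℝ} (hm : 0 < m) : HasDerivAt FS (√(91 / 200) * (sS m / m)) m :=
  (hasDerivAt_PsiS hm).const_mul _

lemma FS_deriv_sq {m : ℝ} (hm : 0 < m) :
    (√(91 / 200) * (sS m / m)) ^ 2 = 91 / 200 / m ^ 2 + 3 * (91 / 200) := by
  rw [mul_pow, div_pow, sS_sq, Real.sq_sqrt (by norm_num)]
  field_simp

lemma FS_one : FS 1 = 0 := by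
  obtain ⟨-, h⟩ := PsiS_eval (m := 1) (r := 2) (u := 1) (by norm_num) (by norm_num) (by norm_num)
    (by norm_num)
  simp [FS, h]

/-- **the scalar certificate in dual form (SC)**, `C0 = 0.97`, `p m = 91/200 (1 + m²)`, `F = FS` -/
theorem scalar_SC (t : ℝ) : ∃ c : ℝ, 0 < c ∧ ∃ κ : ℝ, ∀ m : ℝ, 0 < m →
    -2 * Real.log m + 91 / 200 * (1 + m ^ 2) - (FS m - t) ^ 2 + c * (1 + m ^ 2) / 2 - 1
      - Real.log c - κ * (m - 1) ≤ 0.97 := by
  set q : ℝ := √(91 / 200) with hq
  have hq2 : q ^ 2 = 91 / 200 := Real.sq_sqrt (by norm_num)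
  refine ⟨161 / 200, by norm_num, 173 / 40 + 2 * (q * (453 / 200)) * t
    - 2 * (91 / 200 * (453 / 200) ^ 2), fun m hm => ?_⟩
  have h := gS_le hm
  have h2 : -(FS m - t) ^ 2 ≤ -2 * (q * (453 / 200)) * (FS m - t) * (m - 1)
      + (q * (453 / 200)) ^ 2 * (m - 1) ^ 2 := by
    nlinarith [sq_nonneg (FS m - t - q * (453 / 200) * (m - 1))]
  have h3 : FS m = q * PsiS m := rfl
  have h4 : -2 * (q * (453 / 200)) * (FS m - t) * (m - 1) =
      -2 * (91 / 200) * (453 / 200) * ((m - 1) * PsiS m)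
        + 2 * (q * (453 / 200)) * t * (m - 1) := by
    rw [h3, ← hq2]; ring
  have h5 : (q * (453 / 200)) ^ 2 * (m - 1) ^ 2 = 91 / 200 * (453 / 200) ^ 2 * (m - 1) ^ 2 := by
    rw [mul_pow, hq2]
  unfold gS at h
  rw [h4, h5] at h2
  nlinarith [h, h2]

end Vale.Agent.P254.S11
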