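import Vale.Agent.P254.S.Iface
import Vale.Agent.P254.S11.Scalar

/-!
# P254, block S: the scalar certificate in the form of `S/Iface.lean`

`α = β = 91/200`, `γ = 0`, `C₀ = 0.97`.
-/

noncomputable section

namespace Vale.Agent.P254.S11

open Real Set Vale.Agent.P254.S

theorem certA : Cert (91 / 200) 0 (91 / 200) 0.97 FS (fun m => √(91 / 200) * (sS m / m)) where
  al := by norm_num
  ga := le_rfl
  be := by norm_num
  hd := fun m hm => hasDerivAt_FS hm
  cont := by
    intro m hm
    have hm' : 0 < m := hm
    exact (continuousAt_const.mul ((hasDerivAt_sS m).continuousAt.div continuousAt_id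
      hm'.ne')).continuousWithinAt
  nonneg := fun m hm => mul_nonneg (Real.sqrt_nonneg _) (div_nonneg (sS_pos m).le hm.le)
  sq := fun m hm => by
    have h := FS_deriv_sq hm
    simp only [mul_zero, zero_div, add_zero]
    exact h.le
  cert := fun t => by
    obtain ⟨c, hc, k, h⟩ := scalar_SC t
    refine ⟨c, hc, k, fun m hm => ?_⟩
    have := h m hm
    nlinarith [this]

end Vale.Agent.P254.S11
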