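import Mathlib

/-!
# P254, block S: numerical bounds for logarithms of rationals
-/

noncomputable section

namespace Vale.Agent.P254.S11

open Real Finset

/-- `log ((1+x)/(1-x))` between partial sums -/
lemma log_art {x : ℝ} (h0 : 0 ≤ x) (h1 : x < 1) :
    2 * (x + x ^ 3 / 3 + x ^ 5 / 5) ≤ Real.log ((1 + x) / (1 - x)) ∧
    Real.log ((1 + x) / (1 - x)) ≤ 2 * (x + x ^ 3 / 3 + x ^ 5 / 5 + x ^ 7 / (1 - x ^ 2)) := by
  have a := Real.sum_range_le_log_div h0 h1 3
  have b := Real.log_div_le_sum_range_add h0 h1 3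
  simp only [sum_range_succ, sum_range_zero] at a b
  norm_num at a b
  constructor
  · linarith
  · linarith

end Vale.Agent.P254.S11
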